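import Vale.Agent.P243.Defs

open MeasureTheory

namespace Vale.Agent.P243

abbrev E2 : Type := EuclideanSpace ℝ (Fin 2)

noncomputable abbrev perpS (u : E3) : Submodule ℝ E3 := (Submodule.span ℝ {u})ᗮ

/-- determinant of three vectors -/
def det3 (a b c : E3) : ℝ :=
  a 0 * (b 1 * c 2 - b 2 * c 1) - a 1 * (b 0 * c 2 - b 2 * c 0) + a 2 * (b 0 * c 1 - b 1 * c 0)

def stdTri : Set E2 := {q | 0 ≤ q 0 ∧ 0 ≤ q 1 ∧ q 0 + q 1 ≤ 1}

def tri (c a b : E3) : Set E3 :=
  {p | ∃ s t : ℝ, 0 ≤ s ∧ 0 ≤ t ∧ s + t ≤ 1 ∧ p = c + s • a + t • b}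

lemma volume_stdTri : volume stdTri = ENNReal.ofReal (1 / 2) := by
  have h1 : MeasurePreserving (fun q : E2 => (q 0, q 1)) volume volume :=
    (volume_preserving_finTwoArrow ℝ).comp (PiLp.volume_preserving_ofLp (Fin 2))
  let S : Set (ℝ × ℝ) := {x | x.1 ∈ Set.Icc (0 : ℝ) 1 ∧ x.2 ∈ Set.Icc (0 : ℝ) (1 - x.1)}
  have hS : stdTri = (fun q : E2 => (q 0, q 1)) ⁻¹' S := by
    ext q
    simp only [stdTri, S, Set.mem_ofPred_eq, Set.mem_preimage, Set.mem_Icc]
    constructor
    · rintro ⟨h0, h1, h2⟩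
      exact ⟨⟨h0, by linarith⟩, h1, by linarith⟩
    · rintro ⟨⟨h0, _⟩, h1, h2⟩
      exact ⟨h0, h1, by linarith⟩
  have hm : MeasurableSet S := by
    have : S = {x : ℝ × ℝ | 0 ≤ x.1} ∩ {x | x.1 ≤ 1} ∩ ({x | 0 ≤ x.2} ∩ {x | x.2 ≤ 1 - x.1}) := by
      ext x; simp [S, and_assoc]
    rw [this]
    refine ((measurableSet_le (by fun_prop) (by fun_prop)).inter
      (measurableSet_le (by fun_prop) (by fun_prop))).inter
      ((measurableSet_le (by fun_prop) (by fun_prop)).inter
      (measurableSet_le (by fun_prop) (by fun_prop)))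
  rw [hS, h1.measure_preimage hm.nullMeasurableSet, Measure.volume_eq_prod, Measure.prod_apply hm]
  have h2 : ∀ x : ℝ, volume (Prod.mk x ⁻¹' S) =
      (Set.Icc (0 : ℝ) 1).indicator (fun x => ENNReal.ofReal (1 - x)) x := by
    intro x
    by_cases hx : x ∈ Set.Icc (0 : ℝ) 1
    · have : Prod.mk x ⁻¹' S = Set.Icc (0 : ℝ) (1 - x) := by
        ext y; simp only [S, Set.mem_preimage, Set.mem_ofPred_eq, hx, true_and]
      rw [this, Set.indicator_of_mem hx, Real.volume_Icc, sub_zero]
    · have : Prod.mk x ⁻¹' S = ∅ := by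
        ext y; simp only [S, Set.mem_preimage, Set.mem_ofPred_eq, hx, false_and,
          Set.mem_empty_iff_false]
      rw [this, Set.indicator_of_notMem hx, measure_empty]
  simp_rw [h2]
  rw [lintegral_indicator measurableSet_Icc, ← ofReal_integral_eq_lintegral_ofReal]
  · congr 1
    rw [integral_Icc_eq_integral_Ioc, ← intervalIntegral.integral_of_le zero_le_one,
      intervalIntegral.integral_sub (by simp) (by simp)]
    simp
    norm_num
  · exact (by fun_prop : Continuous fun x : ℝ => 1 - x).integrableOn_Icc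
  · filter_upwards [ae_restrict_mem measurableSet_Icc] with x hx
    simp only [Pi.zero_apply]
    linarith [hx.2]

lemma isCompact_stdTri : IsCompact stdTri := by
  refine Metric.isCompact_of_isClosed_isBounded ?_ ?_
  · have : stdTri = {q : E2 | 0 ≤ q 0} ∩ ({q | 0 ≤ q 1} ∩ {q | q 0 + q 1 ≤ 1}) := rfl
    rw [this]
    exact (isClosed_le (by fun_prop) (by fun_prop)).inter
      ((isClosed_le (by fun_prop) (by fun_prop)).inter (isClosed_le (by fun_prop) (by fun_prop)))
  · refine (Metric.isBounded_closedBall (x := (0 : E2)) (r := 1)).subset ?_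
    rintro q ⟨h0, h1, h2⟩
    rw [mem_closedBall_zero_iff, EuclideanSpace.norm_eq]
    rw [Real.sqrt_le_one]
    simp only [Fin.sum_univ_two, Real.norm_eq_abs, sq_abs]
    nlinarith

/-- the linear map `(s,t) ↦ s a + t b`. -/
noncomputable def lin2 (a b : E3) : E2 →ₗ[ℝ] E3 where
  toFun q := q 0 • a + q 1 • b
  map_add' q r := by simp only [PiLp.add_apply, add_smul]; abel
  map_smul' r q := by simp only [PiLp.smul_apply, smul_eq_mul, mul_smul, smul_add, RingHom.id_apply]

lemma proj_coe (u : E3) (hu : ‖u‖ = 1) (p : E3) :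
    (((perpS u).orthogonalProjectionOnto p : perpS u) : E3) = p - (inner ℝ u p : ℝ) • u := by
  rw [Submodule.coe_orthogonalProjectionOnto_apply, Submodule.starProjection_orthogonal_val,
    Submodule.starProjection_unit_singleton ℝ hu]

lemma inner_E3 (a b : E3) : (inner ℝ a b : ℝ) = a 0 * b 0 + a 1 * b 1 + a 2 * b 2 := by
  simp [PiLp.inner_apply, Fin.sum_univ_three, mul_comm]

lemma normsq_E3 (u : E3) (hu : ‖u‖ = 1) : u 0 ^ 2 + u 1 ^ 2 + u 2 ^ 2 = 1 := by
  have := real_inner_self_eq_norm_sq u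
  rw [inner_E3, hu] at this
  nlinarith

lemma finrank_perp (u : E3) (hu : ‖u‖ = 1) : Module.finrank ℝ (perpS u) = 2 := by
  have hu0 : u ≠ 0 := by
    intro h; rw [h, norm_zero] at hu; exact zero_ne_one hu
  have : Fact (Module.finrank ℝ E3 = 2 + 1) := ⟨by simp⟩
  exact Submodule.finrank_orthogonal_span_singleton hu0

lemma proj_tri_eq (u c a b : E3) :
    (perpS u).orthogonalProjectionOnto '' tri c a b =
      (fun q => (perpS u).orthogonalProjectionOnto c + q) ''
        ((((perpS u).orthogonalProjectionOnto : E3 →ₗ[ℝ] perpS u) ∘ₗ lin2 a b) '' stdTri) := by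
  ext q
  simp only [Set.mem_image, tri, Set.mem_ofPred_eq, stdTri]
  constructor
  · rintro ⟨p, ⟨s, t, hs, ht, hst, rfl⟩, rfl⟩
    refine ⟨_, ⟨!₂[s, t], ⟨by simpa using hs, by simpa using ht, by simpa using hst⟩, rfl⟩, ?_⟩
    simp [lin2, add_assoc]
  · rintro ⟨_, ⟨r, ⟨h0, h1, h2⟩, rfl⟩, rfl⟩
    refine ⟨_, ⟨r 0, r 1, h0, h1, h2, rfl⟩, ?_⟩
    simp [lin2, add_assoc]

lemma isCompact_proj_tri (u c a b : E3) :
    IsCompact ((perpS u).orthogonalProjectionOnto '' tri c a b) := by
  rw [proj_tri_eq]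
  refine (isCompact_stdTri.image ?_).image (by fun_prop)
  exact LinearMap.continuous_of_finiteDimensional _

lemma volume_proj_tri (u : E3) (hu : ‖u‖ = 1) (c a b : E3) :
    volume ((perpS u).orthogonalProjectionOnto '' tri c a b) =
      ENNReal.ofReal (|det3 a b u| / 2) := by
  rw [proj_tri_eq, Set.image_add_left, measure_preimage_add]
  set L := (((perpS u).orthogonalProjectionOnto : E3 →ₗ[ℝ] perpS u) ∘ₗ lin2 a b) with hL
  have h1 := L.euclideanHausdorffMeasure_image_eq_normDet_mul_volume stdTri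
  have h2 : Module.finrank ℝ E2 = Module.finrank ℝ (perpS u) := by
    rw [finrank_perp u hu]; simp
  rw [h2, InnerProductSpace.euclideanHausdorffMeasure_eq_volume] at h1
  rw [h1, volume_stdTri, ← ENNReal.ofReal_mul L.normDet_nonneg]
  congr 1
  have h3 := L.normDet_sq_eq_det_gram (EuclideanSpace.basisFun (Fin 2) ℝ)
  have hn := normsq_E3 u hu
  have h4 : L.normDet ^ 2 = (det3 a b u) ^ 2 := by
    have e0 : ((L (EuclideanSpace.basisFun (Fin 2) ℝ 0) : perpS u) : E3)
        = a - (inner ℝ u a : ℝ) • u := by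
      rw [← proj_coe u hu]; simp [hL, lin2]
    have e1 : ((L (EuclideanSpace.basisFun (Fin 2) ℝ 1) : perpS u) : E3)
        = b - (inner ℝ u b : ℝ) • u := by
      rw [← proj_coe u hu]; simp [hL, lin2]
    have key : ∀ p q : E3, (inner ℝ (p - (inner ℝ u p : ℝ) • u) (q - (inner ℝ u q : ℝ) • u) : ℝ)
        = inner ℝ p q - (inner ℝ u p : ℝ) * (inner ℝ u q : ℝ) := by
      intro p q
      simp only [inner_E3, PiLp.sub_apply, PiLp.smul_apply, smul_eq_mul]
      linear_combination
        ((u 0 * p 0 + u 1 * p 1 + u 2 * p 2) * (u 0 * q 0 + u 1 * q 1 + u 2 * q 2)) * hn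
    rw [Matrix.det_fin_two] at h3
    simp only [Matrix.gram_apply, Submodule.coe_inner, e0, e1, key] at h3
    have h3' : L.normDet ^ 2 = _ := h3
    rw [h3']
    simp only [inner_E3, det3]
    linear_combination
      (-((a 0 * a 0 + a 1 * a 1 + a 2 * a 2) * (b 0 * b 0 + b 1 * b 1 + b 2 * b 2)
        - (a 0 * b 0 + a 1 * b 1 + a 2 * b 2) ^ 2)) * hn
  have h5 : L.normDet = |det3 a b u| := by
    rw [← sq_eq_sq₀ L.normDet_nonneg (abs_nonneg _), sq_abs, h4]
  rw [h5]; ring

lemma det3_proj (u : E3) (hu : ‖u‖ = 1) (a p : E3) :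
    det3 a (((perpS u).orthogonalProjectionOnto p : perpS u) : E3) u = det3 a p u := by
  rw [proj_coe u hu]
  simp only [det3, PiLp.sub_apply, PiLp.smul_apply, smul_eq_mul]
  ring

/-- two triangles with a common side -/
lemma volume_two_tri (u : E3) (hu : ‖u‖ = 1) (K : Set E3) (c a b₁ b₂ : E3)
    (h₁ : tri c a b₁ ⊆ K) (h₂ : tri c a b₂ ⊆ K) :
    ENNReal.ofReal (|det3 a b₁ u - det3 a b₂ u| / 2) ≤
      volume ((perpS u).orthogonalProjectionOnto '' K) := by
  have m₁ : ENNReal.ofReal (|det3 a b₁ u| / 2) ≤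
      volume ((perpS u).orthogonalProjectionOnto '' K) := by
    rw [← volume_proj_tri u hu c]; exact measure_mono (Set.image_mono h₁)
  have m₂ : ENNReal.ofReal (|det3 a b₂ u| / 2) ≤
      volume ((perpS u).orthogonalProjectionOnto '' K) := by
    rw [← volume_proj_tri u hu c]; exact measure_mono (Set.image_mono h₂)
  by_cases hs : det3 a b₁ u * det3 a b₂ u < 0
  · have hd : AEDisjoint volume ((perpS u).orthogonalProjectionOnto '' tri c a b₁)
        ((perpS u).orthogonalProjectionOnto '' tri c a b₂) := by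
      have h0 : volume ((perpS u).orthogonalProjectionOnto '' tri c a 0) = 0 := by
        rw [volume_proj_tri u hu]; simp [det3]
      refine measure_mono_null ?_ h0
      rintro q ⟨⟨p, ⟨s, t, hs0, ht0, hst, rfl⟩, rfl⟩, ⟨p', ⟨s', t', hs0', ht0', hst', rfl⟩, hq⟩⟩
      have e := congrArg (fun r : perpS u => det3 a (r : E3) u) hq
      simp only [det3_proj u hu] at e
      have e' : t' * det3 a b₂ u = t * det3 a b₁ u := by
        simp only [det3, PiLp.add_apply, PiLp.smul_apply, smul_eq_mul] at e ⊢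
        linear_combination e
      have ht : t = 0 := by
        by_contra hne
        have htp : 0 < t := lt_of_le_of_ne ht0 (Ne.symm hne)
        have : t * (det3 a b₁ u * det3 a b₂ u) = t' * (det3 a b₂ u) ^ 2 := by
          linear_combination (-(det3 a b₂ u)) * e'
        nlinarith [mul_nonneg ht0' (sq_nonneg (det3 a b₂ u)), mul_neg_of_pos_of_neg htp hs]
      refine ⟨_, ⟨s, 0, hs0, le_rfl, by linarith, rfl⟩, ?_⟩
      simp [ht]
    have hu2 := measure_union₀ (isCompact_proj_tri u c a b₂).measurableSet.nullMeasurableSet hd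
    rw [volume_proj_tri u hu, volume_proj_tri u hu,
      ← ENNReal.ofReal_add (by positivity) (by positivity)] at hu2
    calc ENNReal.ofReal (|det3 a b₁ u - det3 a b₂ u| / 2)
        ≤ ENNReal.ofReal (|det3 a b₁ u| / 2 + |det3 a b₂ u| / 2) := by
          apply ENNReal.ofReal_le_ofReal
          have := abs_sub (det3 a b₁ u) (det3 a b₂ u)
          linarith
      _ = _ := hu2.symm
      _ ≤ _ := measure_mono (Set.union_subset (Set.image_mono h₁) (Set.image_mono h₂))
  · push Not at hs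
    rcases le_total |det3 a b₁ u| |det3 a b₂ u| with h | h
    · refine le_trans (ENNReal.ofReal_le_ofReal ?_) m₂
      have : |det3 a b₁ u - det3 a b₂ u| ≤ |det3 a b₂ u| := by
        rw [← sq_le_sq₀ (abs_nonneg _) (abs_nonneg _), sq_abs, sq_abs] at h ⊢
        rcases le_total 0 (det3 a b₁ u) with h1 | h1 <;>
        rcases le_total 0 (det3 a b₂ u) with h2 | h2 <;> nlinarith
      linarith
    · refine le_trans (ENNReal.ofReal_le_ofReal ?_) m₁
      have : |det3 a b₁ u - det3 a b₂ u| ≤ |det3 a b₁ u| := by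
        rw [← sq_le_sq₀ (abs_nonneg _) (abs_nonneg _), sq_abs, sq_abs] at h ⊢
        rcases le_total 0 (det3 a b₁ u) with h1 | h1 <;>
        rcases le_total 0 (det3 a b₂ u) with h2 | h2 <;> nlinarith
      linarith

lemma proj_image (u : E3) (hu : ‖u‖ = 1) (K : Set E3) :
    proj u '' K = Subtype.val '' ((perpS u).orthogonalProjectionOnto '' K) := by
  rw [Set.image_image]
  exact Set.image_congr fun p _ => (proj_coe u hu p).symm

lemma planar_proj (u : E3) (hu : ‖u‖ = 1) (K : Set E3) :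
    planar (proj u '' K) = volume ((perpS u).orthogonalProjectionOnto '' K) := by
  rw [proj_image u hu, planar, isometry_subtype_coe.euclideanHausdorffMeasure_image,
    ← InnerProductSpace.euclideanHausdorffMeasure_eq_volume, finrank_perp u hu]

lemma isCompact_proj_tri' (u : E3) (hu : ‖u‖ = 1) (c a b : E3) :
    IsCompact (proj u '' tri c a b) := by
  rw [proj_image u hu]
  exact (isCompact_proj_tri u c a b).image continuous_subtype_val

lemma proj_subset_perp (u : E3) (hu : ‖u‖ = 1) (K : Set E3) : proj u '' K ⊆ perp u := by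
  rintro _ ⟨p, -, rfl⟩
  have hn := normsq_E3 u hu
  simp only [perp, proj, Set.mem_ofPred_eq, inner_E3, PiLp.sub_apply, PiLp.smul_apply, smul_eq_mul]
  linear_combination (-(u 0 * p 0 + u 1 * p 1 + u 2 * p 2)) * hn

/-- membership in the triangular prism -/
lemma mem_cylinder_tri (u c a b q : E3) (hq : q ∈ tri c a b) (l : ℝ) :
    q + l • u ∈ cylinder u (proj u '' tri c a b) := by
  refine ⟨_, ⟨q, hq, rfl⟩, (inner ℝ u q : ℝ) + l, ?_⟩
  rw [proj, add_smul]
  abel

end Vale.Agent.P243
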