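import Vale.Agent.P243.Tetra

open MeasureTheory

namespace Vale.Agent.P243

lemma norm_unit (v : E3) (hv : v ≠ 0) : ‖(‖v‖⁻¹ • v : E3)‖ = 1 := by
  rw [norm_smul, norm_inv, norm_norm, inv_mul_cancel₀ (norm_ne_zero_iff.mpr hv)]

lemma area_prism (c a b v : E3) (hv : v ≠ 0) :
    area (proj (‖v‖⁻¹ • v) '' tri c a b) =
      |det3 a b v| / (2 * ‖v‖) := by
  unfold area
  rw [planar_proj _ (norm_unit v hv), volume_proj_tri _ (norm_unit v hv),
    ENNReal.toReal_ofReal (by positivity)]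
  have : det3 a b (‖v‖⁻¹ • v) = ‖v‖⁻¹ * det3 a b v := by
    simp only [det3, PiLp.smul_apply, smul_eq_mul]; ring
  rw [this, abs_mul, abs_inv, abs_norm]
  have := norm_ne_zero_iff.mpr hv
  field_simp

/-- A finite family of triangular prisms as a cylinder covering. -/
lemma exists_cover {ι : Type} [Fintype ι] (K : Set E3) (c a b v : ι → E3) (hv : ∀ i, v i ≠ 0)
    (hcov : ∀ p ∈ K, ∃ i, ∃ q ∈ tri (c i) (a i) (b i), ∃ l : ℝ, p = q + l • v i) :
    ∃ C : CylCover K, C.totalArea = ∑ i, |det3 (a i) (b i) (v i)| / (2 * ‖v i‖) ∧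
      C.relArea = ∑ i, |det3 (a i) (b i) (v i)| / (2 * ‖v i‖) /
        projArea K (‖v i‖⁻¹ • v i) := by
  let e := (Fintype.equivFin ι).symm
  refine ⟨⟨Fintype.card ι, fun k => ‖v (e k)‖⁻¹ • v (e k),
    fun k => proj (‖v (e k)‖⁻¹ • v (e k)) ''
      tri (c (e k)) (a (e k)) (b (e k)), fun k => norm_unit _ (hv _),
    fun k => proj_subset_perp _ (norm_unit _ (hv _)) _,
    fun k => (isCompact_proj_tri' _ (norm_unit _ (hv _)) _ _ _).measurableSet.nullMeasurableSet,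
    fun k => ?_, ?_⟩, ?_, ?_⟩
  · rw [planar_proj _ (norm_unit _ (hv _))]
    exact (isCompact_proj_tri _ _ _ _).measure_lt_top
  · intro p hp
    obtain ⟨i, q, hq, l, rfl⟩ := hcov p hp
    obtain ⟨k, rfl⟩ := e.surjective i
    refine Set.mem_iUnion.mpr ⟨k, ?_⟩
    have := mem_cylinder_tri (‖v (e k)‖⁻¹ • v (e k)) _ _ _ q hq (l * ‖v (e k)‖)
    rwa [smul_smul, mul_assoc, mul_inv_cancel₀ (norm_ne_zero_iff.mpr (hv _)), mul_one] at this
  · simp only [CylCover.totalArea]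
    rw [← e.sum_comp]
    exact Finset.sum_congr rfl fun k _ => area_prism _ _ _ _ (hv _)
  · simp only [CylCover.relArea]
    rw [← e.sum_comp]
    exact Finset.sum_congr rfl fun k _ => by rw [area_prism _ _ _ _ (hv _)]

noncomputable def bet (k d m : ℝ) : ℝ := k * ((1 - d ^ 2) / 16 + m ^ 2 / 4)

noncomputable def gam (k m : ℝ) : ℝ := k * m / 2

noncomputable def mid (n j : ℕ) : ℝ := -1 / 2 + (j + 1 / 2) / n

/-- The interface condition. -/
def Good (k d : ℝ) (R : ℝ → ℝ) : Prop :=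
  ∀ m m' Y Z Y' Z' : ℝ, |m| ≤ 1 / 2 → |m'| ≤ 1 / 2 →
    (m - d / 2) * Z ≤ Y → Y ≤ (m + d / 2) * Z → (m' - d / 2) * Z' ≤ Y' → Y' ≤ (m' + d / 2) * Z' →
    (1 + bet k d m * bet k d m') * (Z + Z' - 1) =
      Y * (gam k m' + gam k m * bet k d m') - Y' * (gam k m - bet k d m * gam k m') →
    Z ≤ R m ∨ Z' ≤ R m'

lemma discrete_ivt (G : ℕ → ℝ) (n : ℕ) (hn : 0 < n) (h0 : 0 ≤ G 0) (h1 : G n ≤ 0) :
    ∃ j < n, 0 ≤ G j ∧ G (j + 1) ≤ 0 := by
  induction n with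
  | zero => omega
  | succ n ih =>
    by_cases h : 0 ≤ G n
    · exact ⟨n, Nat.lt_succ_self n, h, h1⟩
    · have hn0 : 0 < n := by
        rcases Nat.eq_zero_or_pos n with rfl | h'
        · exact absurd h0 h
        · exact h'
      obtain ⟨j, hj, h2⟩ := ih hn0 (le_of_lt (not_le.mp h))
      exact ⟨j, by omega, h2⟩

lemma abs_mid_le (n j : ℕ) (hj : j < n) : |mid n j| ≤ 1 / 2 := by
  have hn : (0 : ℝ) < n := by exact_mod_cast (by omega : 0 < n)
  have hj' : (j : ℝ) + 1 ≤ n := by exact_mod_cast hj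
  have h1 : ((j : ℝ) + 1 / 2) / n ≤ 1 := by rw [div_le_one hn]; linarith
  have h2 : 0 ≤ ((j : ℝ) + 1 / 2) / n := by positivity
  rw [abs_le]; unfold mid; constructor <;> linarith

lemma exists_sector (k : ℝ) (n : ℕ) (hn : 0 < n) (x y z : ℝ) (h0 : -z ≤ 2 * y) (h1 : 2 * y ≤ z) :
    ∃ j < n, (mid n j - (1 / n) / 2) * (z - x * gam k (mid n j)) ≤ y - x * bet k (1 / n) (mid n j) ∧
      y - x * bet k (1 / n) (mid n j) ≤ (mid n j + (1 / n) / 2) * (z - x * gam k (mid n j)) := by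
  have hn' : (n : ℝ) ≠ 0 := by exact_mod_cast hn.ne'
  let w : ℕ → ℝ := fun j => -1 / 2 + j / n
  obtain ⟨j, hj, g0, g1⟩ := discrete_ivt
    (fun j => y - w j * z - x * k * (1 / 16 - w j ^ 2 / 4)) n hn
    (by simp only [w]; norm_num; linarith)
    (by simp only [w]; rw [div_self hn']; norm_num; linarith)
  refine ⟨j, hj, ?_, ?_⟩
  · have e : w j = mid n j - (1 / n) / 2 := by simp only [w, mid]; field_simp; ring
    rw [e] at g0
    unfold bet gam
    nlinarith [g0]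
  · have e : w (j + 1) = mid n j + (1 / n) / 2 := by
      simp only [w, mid]; push_cast; field_simp; ring
    rw [e] at g1
    unfold bet gam
    nlinarith [g1]

lemma sector_coords (d m R Y Z : ℝ) (hd : 0 < d) (hR : 0 < R) (h0 : (m - d / 2) * Z ≤ Y)
    (h1 : Y ≤ (m + d / 2) * Z) (hZ : Z ≤ R) :
    ∃ s t : ℝ, 0 ≤ s ∧ 0 ≤ t ∧ s + t ≤ 1 ∧ Y = s * R * (m - d / 2) + t * R * (m + d / 2) ∧
      Z = s * R + t * R := by
  refine ⟨((m + d / 2) * Z - Y) / (R * d), (Y - (m - d / 2) * Z) / (R * d),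
    div_nonneg (by linarith) (by positivity), div_nonneg (by linarith) (by positivity), ?_, ?_, ?_⟩
  · rw [← add_div, div_le_one (by positivity)]
    nlinarith
  · field_simp; ring
  · field_simp; ring

noncomputable def cc (n : ℕ) : Fin n ⊕ Fin n → E3
  | .inl _ => 0
  | .inr _ => !₂[0, 0, 1]

noncomputable def edge (n : ℕ) (R : ℝ → ℝ) (σ : ℝ) : Fin n ⊕ Fin n → E3
  | .inl j => R (mid n j) • !₂[-(mid n j + σ), mid n j + σ, 1]
  | .inr j => R (mid n j) • !₂[mid n j + σ, mid n j + σ, -1]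

noncomputable def dir (k : ℝ) (n : ℕ) : Fin n ⊕ Fin n → E3
  | .inl j => !₂[1 - bet k (1 / n) (mid n j), 1 + bet k (1 / n) (mid n j), gam k (mid n j)]
  | .inr j => !₂[1 + bet k (1 / n) (mid n j), -(1 - bet k (1 / n) (mid n j)), -gam k (mid n j)]

lemma dir_ne_zero (k : ℝ) (n : ℕ) (i : Fin n ⊕ Fin n) : dir k n i ≠ 0 := by
  intro h
  have h0 := congrArg (fun p : E3 => p 0) h
  have h1 := congrArg (fun p : E3 => p 1) h
  rcases i with j | j <;> simp [dir] at h0 h1 <;> linarith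

lemma norm_dir (k : ℝ) (n : ℕ) (i : Fin n ⊕ Fin n) :
    ‖dir k n i‖ = √(2 + 2 * bet k (1 / n) (mid n (i.elim id id : Fin n)) ^ 2 +
      gam k (mid n (i.elim id id : Fin n)) ^ 2) := by
  rw [EuclideanSpace.norm_eq]
  congr 1
  rcases i with j | j <;> simp [dir, Fin.sum_univ_three] <;> ring

lemma det_dir (k : ℝ) (n : ℕ) (R : ℝ → ℝ) (i : Fin n ⊕ Fin n) :
    |det3 (edge n R (-((1 / n) / 2)) i) (edge n R ((1 / n) / 2) i) (dir k n i)| =
      2 * R (mid n (i.elim id id : Fin n)) ^ 2 * (1 / n) := by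
  rcases i with j | j
  · have : det3 (edge n R (-((1 / n) / 2)) (.inl j)) (edge n R ((1 / n) / 2) (.inl j))
        (dir k n (.inl j)) = -(2 * R (mid n j) ^ 2 * (1 / n)) := by
      simp [det3, edge, dir]; ring
    rw [this, abs_neg, abs_of_nonneg (by positivity)]; rfl
  · have : det3 (edge n R (-((1 / n) / 2)) (.inr j)) (edge n R ((1 / n) / 2) (.inr j))
        (dir k n (.inr j)) = (2 * R (mid n j) ^ 2 * (1 / n)) := by
      simp [det3, edge, dir]; ring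
    rw [this, abs_of_nonneg (by positivity)]; rfl

lemma tet_covered (k : ℝ) (n : ℕ) (hn : 0 < n) (R : ℝ → ℝ) (hR : ∀ m, 0 < R m)
    (hG : Good k (1 / n) R) (p : E3) (hp : p ∈ tet) :
    ∃ i, ∃ q ∈ tri (cc n i) (edge n R (-((1 / n) / 2)) i) (edge n R ((1 / n) / 2) i),
      ∃ l : ℝ, p = q + l • dir k n i := by
  obtain ⟨h1, h2, h3, h4⟩ := hp
  have hd : (0 : ℝ) < 1 / n := by positivity
  obtain ⟨j, hj, a0, a1⟩ := exists_sector k n hn ((p 0 + p 1) / 2) ((p 1 - p 0) / 2) (p 2)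
    (by linarith) (by linarith)
  obtain ⟨j', hj', b0, b1⟩ := exists_sector k n hn ((p 0 - p 1) / 2) ((p 0 + p 1) / 2) (1 - p 2)
    (by linarith) (by linarith)
  rcases hG _ _ _ _ _ _ (abs_mid_le n j hj) (abs_mid_le n j' hj') a0 a1 b0 b1 (by ring) with h | h
  · obtain ⟨s, t, hs, ht, hst, e1, e2⟩ := sector_coords _ _ _ _ _ hd (hR _) a0 a1 h
    refine ⟨.inl ⟨j, hj⟩, _, ⟨s, t, hs, ht, hst, rfl⟩, (p 0 + p 1) / 2, ?_⟩
    ext i
    fin_cases i <;> simp [cc, edge, dir] <;> simp only [one_div] at e1 e2 <;> linarith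
  · obtain ⟨s, t, hs, ht, hst, e1, e2⟩ := sector_coords _ _ _ _ _ hd (hR _) b0 b1 h
    refine ⟨.inr ⟨j', hj'⟩, _, ⟨s, t, hs, ht, hst, rfl⟩, (p 0 - p 1) / 2, ?_⟩
    ext i
    fin_cases i <;> simp [cc, edge, dir] <;> simp only [one_div] at e1 e2 <;> linarith

end Vale.Agent.P243
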