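import Mathlib

open MeasureTheory

namespace Vale.Agent.P243

/-- Euclidean three-space. -/
abbrev E3 : Type := EuclideanSpace ℝ (Fin 3)

/-- A convex body: compact, convex, nonempty interior. -/
def IsConvexBody (K : Set E3) : Prop :=
  IsCompact K ∧ Convex ℝ K ∧ (interior K).Nonempty

/-- Two-dimensional Euclidean Hausdorff measure on three-space; on every plane it is the planar
Lebesgue measure. -/
noncomputable def planar : Measure E3 := Measure.euclideanHausdorffMeasure 2

/-- Planar area as a real number. -/
noncomputable def area (B : Set E3) : ℝ := (planar B).toReal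

/-- The plane through the origin orthogonal to `u`. -/
def perp (u : E3) : Set E3 := {b | inner ℝ u b = 0}

/-- Orthogonal projection onto the plane orthogonal to the unit vector `u`. -/
noncomputable def proj (u p : E3) : E3 := p - (inner ℝ u p : ℝ) • u

/-- Area of the orthogonal projection of `K` onto the plane orthogonal to `u`. -/
noncomputable def projArea (K : Set E3) (u : E3) : ℝ := area (proj u '' K)

/-- The least area of an orthogonal projection of `K` onto a plane. -/
noncomputable def Amin (K : Set E3) : ℝ :=
  sInf {a : ℝ | ∃ u : E3, ‖u‖ = 1 ∧ a = projArea K u}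

/-- The cylinder `B + ℝ u`. -/
def cylinder (u : E3) (B : Set E3) : Set E3 :=
  {p | ∃ b ∈ B, ∃ t : ℝ, p = b + t • u}

/-- A finite covering of `K` by cylinders with measurable bases of finite area. -/
structure CylCover (K : Set E3) where
  m : ℕ
  u : Fin m → E3
  B : Fin m → Set E3
  unit : ∀ i, ‖u i‖ = 1
  base : ∀ i, B i ⊆ perp (u i)
  meas : ∀ i, NullMeasurableSet (B i) planar
  finite : ∀ i, planar (B i) < ⊤
  covers : K ⊆ ⋃ i, cylinder (u i) (B i)

/-- Total base area. -/
noncomputable def CylCover.totalArea {K : Set E3} (C : CylCover K) : ℝ :=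
  ∑ i, area (C.B i)

/-- Directionwise relative area. -/
noncomputable def CylCover.relArea {K : Set E3} (C : CylCover K) : ℝ :=
  ∑ i, area (C.B i) / projArea K (C.u i)

/-- The constant `c₃`. -/
noncomputable def c3 : ℝ :=
  sInf {x : ℝ | ∃ K : Set E3, IsConvexBody K ∧ ∃ C : CylCover K, x = C.totalArea / Amin K}

/-- The constant `r₃`. -/
noncomputable def r3 : ℝ :=
  sInf {x : ℝ | ∃ K : Set E3, IsConvexBody K ∧ ∃ C : CylCover K, x = C.relArea}

end Vale.Agent.P243
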