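import Vale.Agent.P243.PolyA
import Vale.Agent.P243.PolyB

open MeasureTheory

namespace Vale.Agent.P243

lemma area_nonneg (B : Set E3) : 0 ≤ area B := ENNReal.toReal_nonneg

lemma Amin_nonneg (K : Set E3) : 0 ≤ Amin K := by
  unfold Amin
  apply Real.sInf_nonneg
  rintro _ ⟨u, -, rfl⟩
  exact area_nonneg _

lemma Amin_tet_pos : 0 < Amin tet :=
  lt_of_lt_of_le (Real.sqrt_pos.mpr (by norm_num)) Amin_tet_ge

lemma exists_total : ∃ C : CylCover tet, C.totalArea ≤ 1999 / 4000 * Amin tet := by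
  obtain ⟨C, hC⟩ := coverA
  exact ⟨C, le_trans hC (mul_le_mul_of_nonneg_left Amin_tet_ge (by norm_num))⟩

lemma c3_le : c3 ≤ 1999 / 4000 := by
  obtain ⟨C, hC⟩ := exists_total
  refine le_trans (csInf_le ⟨0, ?_⟩ ⟨tet, isConvexBody_tet, C, rfl⟩) ?_
  · rintro _ ⟨K, -, D, rfl⟩
    exact div_nonneg (Finset.sum_nonneg fun i _ => area_nonneg _) (Amin_nonneg K)
  · rw [div_le_iff₀ Amin_tet_pos]; exact hC

lemma r3_le : r3 ≤ 43 / 100 := by
  obtain ⟨C, hC⟩ := coverB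
  refine le_trans (csInf_le ⟨0, ?_⟩ ⟨tet, isConvexBody_tet, C, rfl⟩) hC
  rintro _ ⟨K, -, D, rfl⟩
  exact Finset.sum_nonneg fun i _ => div_nonneg (area_nonneg _) (area_nonneg _)

lemma projArea_tet_pos (u : E3) (hu : ‖u‖ = 1) : 0 < projArea tet u :=
  lt_of_lt_of_le (Real.sqrt_pos.mpr (by norm_num)) (projArea_tet_ge u hu)

end Vale.Agent.P243
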