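import Vale.Agent.P243.Cover

open MeasureTheory

namespace Vale.Agent.P243

noncomputable def Rq (r a b s : ℝ) : ℝ := r + a * s + b * s ^ 2

noncomputable def bs (k d s : ℝ) : ℝ := k * ((1 - d ^ 2) / 16 + s / 4)

noncomputable def Gq (k d r a b s t q : ℝ) : ℝ :=
  Rq r a b s * (1 + bs k d s * bs k d t - k * s * bs k d t / 2 - k * q / 2 - d) +
  Rq r a b t * (1 + bs k d s * bs k d t - k * t * bs k d s / 2 + k * q / 2 - d) -
  (1 + bs k d s * bs k d t)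

noncomputable def Hq (k d r a b s t : ℝ) : ℝ := Gq k d r a b s t ((s + t) / 2)

noncomputable def Wq (w0 w1 w2 w3 s : ℝ) : ℝ := w0 + w1 * s + w2 * s ^ 2 + w3 * s ^ 3

lemma Gq_nonneg (k d r a b : ℝ) (hk : 0 ≤ k)
    (hH : ∀ s t : ℝ, 0 ≤ s → s ≤ 1 / 4 → 0 ≤ t → t ≤ 1 / 4 → 0 ≤ Hq k d r a b s t)
    (m m' : ℝ) (hm : |m| ≤ 1 / 2) (hm' : |m'| ≤ 1 / 2) :
    0 ≤ Gq k d r a b (m ^ 2) (m' ^ 2) (m * m') := by
  have h1 : m ^ 2 ≤ 1 / 4 := by rw [abs_le] at hm; nlinarith [hm.1, hm.2]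
  have h2 : m' ^ 2 ≤ 1 / 4 := by rw [abs_le] at hm'; nlinarith [hm'.1, hm'.2]
  rcases le_total (Rq r a b (m' ^ 2)) (Rq r a b (m ^ 2)) with h | h
  · have e : Gq k d r a b (m ^ 2) (m' ^ 2) (m * m') = Hq k d r a b (m ^ 2) (m' ^ 2) +
        k / 4 * (m - m') ^ 2 * (Rq r a b (m ^ 2) - Rq r a b (m' ^ 2)) := by
      unfold Hq Gq; ring
    rw [e]
    have := hH _ _ (sq_nonneg m) h1 (sq_nonneg m') h2
    have h3 : 0 ≤ Rq r a b (m ^ 2) - Rq r a b (m' ^ 2) := by linarith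
    positivity
  · have e : Gq k d r a b (m ^ 2) (m' ^ 2) (m * m') = Hq k d r a b (m' ^ 2) (m ^ 2) +
        k / 4 * (m + m') ^ 2 * (Rq r a b (m' ^ 2) - Rq r a b (m ^ 2)) := by
      unfold Hq Gq; ring
    rw [e]
    have := hH _ _ (sq_nonneg m') h2 (sq_nonneg m) h1
    have h3 : 0 ≤ Rq r a b (m' ^ 2) - Rq r a b (m ^ 2) := by linarith
    positivity

lemma bet_bounds (k d m : ℝ) (hk : 0 ≤ k) (hk4 : k ≤ 4) (hd : 0 ≤ d) (hd1 : d ≤ 1 / 8)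
    (hm : |m| ≤ 1 / 2) : 0 ≤ bet k d m ∧ bet k d m ≤ 1 / 2 ∧ |gam k m| ≤ 1 := by
  have h1 : m ^ 2 ≤ 1 / 4 := by rw [abs_le] at hm; nlinarith [hm.1, hm.2]
  have h2 : 0 ≤ (1 - d ^ 2) / 16 + m ^ 2 / 4 := by nlinarith [sq_nonneg m]
  have h3 : (1 - d ^ 2) / 16 + m ^ 2 / 4 ≤ 1 / 8 := by nlinarith [sq_nonneg d]
  refine ⟨mul_nonneg hk h2, ?_, ?_⟩
  · unfold bet; nlinarith
  · unfold gam
    rw [abs_div, abs_mul, abs_of_nonneg hk, abs_two]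
    nlinarith [abs_nonneg m]

lemma good_of_H (k d r a b : ℝ) (hk : 0 ≤ k) (hk4 : k ≤ 4) (hd : 0 ≤ d) (hd1 : d ≤ 1 / 8)
    (hR : ∀ m : ℝ, 0 < Rq r a b (m ^ 2))
    (hH : ∀ s t : ℝ, 0 ≤ s → s ≤ 1 / 4 → 0 ≤ t → t ≤ 1 / 4 → 0 ≤ Hq k d r a b s t) :
    Good k d (fun m => Rq r a b (m ^ 2)) := by
  intro m m' Y Z Y' Z' hm hm' a0 a1 b0 b1 hid
  by_contra hcon
  push Not at hcon
  obtain ⟨hZ, hZ'⟩ := hcon
  have hG := Gq_nonneg k d r a b hk hH m m' hm hm'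
  obtain ⟨p0, p1, p2⟩ := bet_bounds k d m hk hk4 hd hd1 hm
  obtain ⟨q0, q1, q2⟩ := bet_bounds k d m' hk hk4 hd hd1 hm'
  have hZ0 : 0 < Z := lt_trans (hR m) hZ
  have hZ0' : 0 < Z' := lt_trans (hR m') hZ'
  set A := gam k m' + gam k m * bet k d m' with hA
  set B := gam k m - bet k d m * gam k m' with hB
  set D := 1 + bet k d m * bet k d m' with hD
  have hA' : |A| ≤ 3 / 2 := by
    have := abs_add_le (gam k m') (gam k m * bet k d m')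
    rw [abs_mul, abs_of_nonneg q0] at this
    nlinarith [abs_nonneg (gam k m)]
  have hB' : |B| ≤ 3 / 2 := by
    have := abs_sub (gam k m) (bet k d m * gam k m')
    rw [abs_mul, abs_of_nonneg p0] at this
    nlinarith [abs_nonneg (gam k m')]
  have hD1 : 1 ≤ D := by nlinarith [mul_nonneg p0 q0]
  have e1 : (Y - m * Z) * A ≤ d * Z := by
    have h1 : |Y - m * Z| ≤ d / 2 * Z := by rw [abs_le]; constructor <;> linarith
    have h2 := le_abs_self ((Y - m * Z) * A)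
    rw [abs_mul] at h2
    have h3 : |Y - m * Z| * |A| ≤ (d / 2 * Z) * (3 / 2) :=
      mul_le_mul h1 hA' (abs_nonneg _) (by positivity)
    nlinarith [mul_nonneg hd hZ0.le]
  have e2 : -((Y' - m' * Z') * B) ≤ d * Z' := by
    have h1 : |Y' - m' * Z'| ≤ d / 2 * Z' := by rw [abs_le]; constructor <;> linarith
    have h2 := neg_le_abs ((Y' - m' * Z') * B)
    rw [abs_mul] at h2
    have h3 : |Y' - m' * Z'| * |B| ≤ (d / 2 * Z') * (3 / 2) :=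
      mul_le_mul h1 hB' (abs_nonneg _) (by positivity)
    nlinarith [mul_nonneg hd hZ0'.le]
  have c1 : 0 < D - m * A - d := by
    have h2 := le_abs_self (m * A)
    rw [abs_mul] at h2
    have h3 : |m| * |A| ≤ (1 / 2) * (3 / 2) := mul_le_mul hm hA' (abs_nonneg _) (by positivity)
    linarith
  have c2 : 0 < D + m' * B - d := by
    have h2 := neg_le_abs (m' * B)
    rw [abs_mul] at h2
    have h3 : |m'| * |B| ≤ (1 / 2) * (3 / 2) := mul_le_mul hm' hB' (abs_nonneg _) (by positivity)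
    linarith
  have hG' : Gq k d r a b (m ^ 2) (m' ^ 2) (m * m') =
      Rq r a b (m ^ 2) * (D - m * A - d) + Rq r a b (m' ^ 2) * (D + m' * B - d) - D := by
    simp only [hA, hB, hD, Gq, bs, bet, gam]; ring
  have f1 := mul_lt_mul_of_pos_right hZ c1
  have f2 := mul_lt_mul_of_pos_right hZ' c2
  nlinarith

lemma sum_mid (n : ℕ) (hn : 0 < n) (w0 w1 w2 w3 : ℝ) :
    ∑ j : Fin n, (1 / n : ℝ) * Wq w0 w1 w2 w3 (mid n j ^ 2) =
      w0 + w1 * (1 / 12 - (1 / n : ℝ) ^ 2 / 12) +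
        w2 * (1 / 80 - (1 / n : ℝ) ^ 2 / 24 + 7 * (1 / n : ℝ) ^ 4 / 240) +
        w3 * (1 / 448 - (1 / n : ℝ) ^ 2 / 64 + 7 * (1 / n : ℝ) ^ 4 / 192
          - 31 * (1 / n : ℝ) ^ 6 / 1344) := by
  have hn' : (n : ℝ) ≠ 0 := by exact_mod_cast hn.ne'
  set d : ℝ := 1 / n with hd
  let Ψ : ℝ → ℝ := fun x => w0 * x + w1 * (x ^ 3 / 3 - d ^ 2 * x / 12) +
    w2 * (x ^ 5 / 5 - d ^ 2 * x ^ 3 / 6 + 7 * d ^ 4 * x / 240) +
    w3 * (x ^ 7 / 7 - d ^ 2 * x ^ 5 / 4 + 7 * d ^ 4 * x ^ 3 / 48 - 31 * d ^ 6 * x / 1344)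
  have h1 : ∀ j : ℕ, d * Wq w0 w1 w2 w3 (mid n j ^ 2) =
      Ψ (-1 / 2 + ((j + 1 : ℕ) : ℝ) * d) - Ψ (-1 / 2 + (j : ℝ) * d) := by
    intro j
    have e0 : (-1 / 2 + (j : ℝ) * d) = mid n j - d / 2 := by
      simp only [mid, hd]; field_simp; ring
    have e1 : (-1 / 2 + ((j + 1 : ℕ) : ℝ) * d) = mid n j + d / 2 := by
      simp only [mid, hd]; push_cast; field_simp; ring
    rw [e0, e1]
    simp only [Ψ, Wq]
    ring
  rw [Fin.sum_univ_eq_sum_range (fun j => d * Wq w0 w1 w2 w3 (mid n j ^ 2)) n]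
  simp_rw [h1]
  rw [Finset.sum_range_sub (fun j : ℕ => Ψ (-1 / 2 + (j : ℝ) * d))]
  have e : (n : ℝ) * d = 1 := by simp only [hd]; field_simp
  rw [e]
  simp only [Ψ]
  push_cast
  ring

lemma sum_sum_elim (n : ℕ) (f : Fin n → ℝ) :
    ∑ i : Fin n ⊕ Fin n, f (i.elim id id) = 2 * ∑ j, f j := by
  rw [Fintype.sum_sum_type]; simp; ring

/-- bound for the total base area -/
lemma exists_cover_total (k r a b w0 w1 w2 w3 c : ℝ) (n : ℕ) (hn : 8 ≤ n) (hk : 0 ≤ k)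
    (hk4 : k ≤ 4) (hR : ∀ m : ℝ, 0 < Rq r a b (m ^ 2))
    (hH : ∀ s t : ℝ, 0 ≤ s → s ≤ 1 / 4 → 0 ≤ t → t ≤ 1 / 4 → 0 ≤ Hq k (1 / n) r a b s t)
    (hW0 : ∀ s : ℝ, 0 ≤ s → s ≤ 1 / 4 → 0 ≤ Wq w0 w1 w2 w3 s)
    (hW : ∀ s : ℝ, 0 ≤ s → s ≤ 1 / 4 → Rq r a b s ^ 4 ≤
      Wq w0 w1 w2 w3 s ^ 2 * (1 + bs k (1 / n) s ^ 2 + k ^ 2 * s / 8))
    (hc : 2 * (w0 + w1 * (1 / 12 - (1 / n : ℝ) ^ 2 / 12) +
        w2 * (1 / 80 - (1 / n : ℝ) ^ 2 / 24 + 7 * (1 / n : ℝ) ^ 4 / 240) +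
        w3 * (1 / 448 - (1 / n : ℝ) ^ 2 / 64 + 7 * (1 / n : ℝ) ^ 4 / 192
          - 31 * (1 / n : ℝ) ^ 6 / 1344)) ≤ c) :
    ∃ C : CylCover tet, C.totalArea ≤ c * √(1 / 2) := by
  have hn0 : 0 < n := by omega
  have hd1 : (1 / n : ℝ) ≤ 1 / 8 := by
    apply one_div_le_one_div_of_le (by norm_num); exact_mod_cast hn
  have hG := good_of_H k (1 / n) r a b hk hk4 (by positivity) hd1 hR hH
  obtain ⟨C, hC, -⟩ := exists_cover tet (cc n) _ _ (dir k n) (dir_ne_zero k n)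
    (tet_covered k n hn0 _ hR hG)
  refine ⟨C, ?_⟩
  rw [hC]
  have hterm : ∀ i : Fin n ⊕ Fin n,
      |det3 (edge n (fun m => Rq r a b (m ^ 2)) (-((1 / n) / 2)) i)
        (edge n (fun m => Rq r a b (m ^ 2)) ((1 / n) / 2) i) (dir k n i)| / (2 * ‖dir k n i‖) ≤
      (1 / n : ℝ) * Wq w0 w1 w2 w3 (mid n (i.elim id id : Fin n) ^ 2) * √(1 / 2) := by
    intro i
    rw [det_dir, norm_dir]
    set m := mid n (i.elim id id : Fin n) with hm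
    have hm1 : |m| ≤ 1 / 2 := abs_mid_le n _ (Fin.is_lt _)
    have h1 : m ^ 2 ≤ 1 / 4 := by rw [abs_le] at hm1; nlinarith [hm1.1, hm1.2]
    have h2 := hW0 _ (sq_nonneg m) h1
    have h3 := hW _ (sq_nonneg m) h1
    have hpos : 0 < 2 + 2 * bet k (1 / n) m ^ 2 + gam k m ^ 2 := by positivity
    have h4 : Rq r a b (m ^ 2) ^ 2 ≤ Wq w0 w1 w2 w3 (m ^ 2) *
        (√(1 / 2) * √(2 + 2 * bet k (1 / n) m ^ 2 + gam k m ^ 2)) := by
      rw [← Real.sqrt_mul (by norm_num)]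
      rw [← sq_le_sq₀ (by positivity) (by positivity), mul_pow, Real.sq_sqrt (by positivity)]
      have : 1 / 2 * (2 + 2 * bet k (1 / n) m ^ 2 + gam k m ^ 2) =
          1 + bs k (1 / n) (m ^ 2) ^ 2 + k ^ 2 * m ^ 2 / 8 := by
        unfold bet bs gam; ring
      rw [this]
      linarith
    rw [div_le_iff₀ (by positivity)]
    have hd0 : (0 : ℝ) ≤ 1 / n := by positivity
    nlinarith [mul_le_mul_of_nonneg_left h4 hd0]
  refine le_trans (Finset.sum_le_sum fun i _ => hterm i) ?_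
  rw [← Finset.sum_mul, sum_sum_elim n (fun j => (1 / n : ℝ) * Wq w0 w1 w2 w3 (mid n j ^ 2)),
    sum_mid n hn0]
  exact mul_le_mul_of_nonneg_right hc (Real.sqrt_nonneg _)

/-- bound for the relative area -/
lemma exists_cover_rel (k r a b w0 w1 w2 w3 c : ℝ) (n : ℕ) (hn : 8 ≤ n) (hk : 0 ≤ k)
    (hk4 : k ≤ 4) (hR : ∀ m : ℝ, 0 < Rq r a b (m ^ 2))
    (hH : ∀ s t : ℝ, 0 ≤ s → s ≤ 1 / 4 → 0 ≤ t → t ≤ 1 / 4 → 0 ≤ Hq k (1 / n) r a b s t)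
    (hW : ∀ s : ℝ, 0 ≤ s → s ≤ 1 / 4 → Rq r a b s ^ 2 ≤
      Wq w0 w1 w2 w3 s * (1 + bs k (1 / n) s))
    (hc : 2 * (w0 + w1 * (1 / 12 - (1 / n : ℝ) ^ 2 / 12) +
        w2 * (1 / 80 - (1 / n : ℝ) ^ 2 / 24 + 7 * (1 / n : ℝ) ^ 4 / 240) +
        w3 * (1 / 448 - (1 / n : ℝ) ^ 2 / 64 + 7 * (1 / n : ℝ) ^ 4 / 192
          - 31 * (1 / n : ℝ) ^ 6 / 1344)) ≤ c) :
    ∃ C : CylCover tet, C.relArea ≤ c := by
  have hn0 : 0 < n := by omega
  have hd1 : (1 / n : ℝ) ≤ 1 / 8 := by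
    apply one_div_le_one_div_of_le (by norm_num); exact_mod_cast hn
  have hG := good_of_H k (1 / n) r a b hk hk4 (by positivity) hd1 hR hH
  obtain ⟨C, -, hC⟩ := exists_cover tet (cc n) _ _ (dir k n) (dir_ne_zero k n)
    (tet_covered k n hn0 _ hR hG)
  refine ⟨C, ?_⟩
  rw [hC]
  have hterm : ∀ i : Fin n ⊕ Fin n,
      |det3 (edge n (fun m => Rq r a b (m ^ 2)) (-((1 / n) / 2)) i)
        (edge n (fun m => Rq r a b (m ^ 2)) ((1 / n) / 2) i) (dir k n i)| / (2 * ‖dir k n i‖) /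
        projArea tet (‖dir k n i‖⁻¹ • dir k n i) ≤
      (1 / n : ℝ) * Wq w0 w1 w2 w3 (mid n (i.elim id id : Fin n) ^ 2) := by
    intro i
    rw [det_dir]
    set m := mid n (i.elim id id : Fin n) with hm
    have hm1 : |m| ≤ 1 / 2 := abs_mid_le n _ (Fin.is_lt _)
    have h1 : m ^ 2 ≤ 1 / 4 := by rw [abs_le] at hm1; nlinarith [hm1.1, hm1.2]
    have h3 := hW _ (sq_nonneg m) h1
    obtain ⟨p0, -, -⟩ := bet_bounds k (1 / n) m hk hk4 (by positivity) hd1 hm1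
    have hN : 0 < ‖dir k n i‖ := norm_pos_iff.mpr (dir_ne_zero k n i)
    have hu := norm_unit _ (dir_ne_zero k n i)
    have hP : ‖dir k n i‖⁻¹ * (1 + bet k (1 / n) m) ≤ projArea tet (‖dir k n i‖⁻¹ • dir k n i) := by
      rcases i with j | j
      · refine le_trans ?_ (le_trans (le_abs_self _) (proj_ge_1 _ hu))
        simp only [PiLp.smul_apply, smul_eq_mul, hm]
        apply le_of_eq; congr 1
      · refine le_trans ?_ (le_trans (le_abs_self _) (proj_ge_0 _ hu))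
        simp only [PiLp.smul_apply, smul_eq_mul, hm]
        apply le_of_eq; congr 1
    have hP0 : 0 < ‖dir k n i‖⁻¹ * (1 + bet k (1 / n) m) := by positivity
    have hb : bs k (1 / n) (m ^ 2) = bet k (1 / n) m := rfl
    rw [hb] at h3
    have hd0 : (0 : ℝ) ≤ 1 / n := by positivity
    calc _ ≤ 2 * Rq r a b (m ^ 2) ^ 2 * (1 / n) / (2 * ‖dir k n i‖) /
          (‖dir k n i‖⁻¹ * (1 + bet k (1 / n) m)) :=
          div_le_div_of_nonneg_left (by positivity) hP0 hP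
      _ = (1 / n) * (Rq r a b (m ^ 2) ^ 2 / (1 + bet k (1 / n) m)) := by
          field_simp
      _ ≤ _ := by
          apply mul_le_mul_of_nonneg_left _ hd0
          rw [div_le_iff₀ (by positivity)]
          exact h3
  refine le_trans (Finset.sum_le_sum fun i _ => hterm i) ?_
  rw [sum_sum_elim n (fun j => (1 / n : ℝ) * Wq w0 w1 w2 w3 (mid n j ^ 2)), sum_mid n hn0]
  exact hc

end Vale.Agent.P243
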