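import Vale.Agent.P243.Area

open MeasureTheory

namespace Vale.Agent.P243

/-- A regular tetrahedron of edge length `√2`. -/
def tet : Set E3 :=
  {p | p 0 + p 1 ≤ 1 - p 2 ∧ -(p 0 + p 1) ≤ 1 - p 2 ∧ p 1 - p 0 ≤ p 2 ∧ p 0 - p 1 ≤ p 2}

lemma convex_tet : Convex ℝ tet := by
  rintro p ⟨h1, h2, h3, h4⟩ q ⟨k1, k2, k3, k4⟩ a b ha hb hab
  simp only [tet, Set.mem_ofPred_eq, PiLp.add_apply, PiLp.smul_apply, smul_eq_mul]
  have hb' : b = 1 - a := by linarith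
  subst hb'
  refine ⟨?_, ?_, ?_, ?_⟩ <;> nlinarith

lemma isCompact_tet : IsCompact tet := by
  refine Metric.isCompact_of_isClosed_isBounded ?_ ?_
  · have : tet = {p : E3 | p 0 + p 1 ≤ 1 - p 2} ∩ ({p | -(p 0 + p 1) ≤ 1 - p 2} ∩
        ({p | p 1 - p 0 ≤ p 2} ∩ {p | p 0 - p 1 ≤ p 2})) := rfl
    rw [this]
    exact (isClosed_le (by fun_prop) (by fun_prop)).inter
      ((isClosed_le (by fun_prop) (by fun_prop)).inter
      ((isClosed_le (by fun_prop) (by fun_prop)).inter (isClosed_le (by fun_prop) (by fun_prop))))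
  · refine (Metric.isBounded_closedBall (x := (0 : E3)) (r := 2)).subset ?_
    rintro q ⟨h0, h1, h2, h3⟩
    rw [mem_closedBall_zero_iff, EuclideanSpace.norm_eq, Real.sqrt_le_left (by norm_num)]
    simp only [Fin.sum_univ_three, Real.norm_eq_abs, sq_abs]
    have a0 : q 0 ^ 2 ≤ 1 := by nlinarith
    have a1 : q 1 ^ 2 ≤ 1 := by nlinarith
    have a2 : q 2 ^ 2 ≤ 1 := by nlinarith
    linarith

lemma interior_tet : (interior tet).Nonempty := by
  let U : Set E3 := {p : E3 | p 0 + p 1 < 1 - p 2} ∩ ({p | -(p 0 + p 1) < 1 - p 2} ∩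
        ({p | p 1 - p 0 < p 2} ∩ {p | p 0 - p 1 < p 2}))
  have hU : IsOpen U := (isOpen_lt (by fun_prop) (by fun_prop)).inter
      ((isOpen_lt (by fun_prop) (by fun_prop)).inter
      ((isOpen_lt (by fun_prop) (by fun_prop)).inter (isOpen_lt (by fun_prop) (by fun_prop))))
  have hsub : U ⊆ tet := by
    rintro p ⟨h1, h2, h3, h4⟩
    exact ⟨le_of_lt h1, le_of_lt h2, le_of_lt h3, le_of_lt h4⟩
  refine ⟨!₂[0, 0, 1 / 2], interior_maximal hsub hU ?_⟩
  refine ⟨?_, ?_, ?_, ?_⟩ <;> simp <;> norm_num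

lemma isConvexBody_tet : IsConvexBody tet := ⟨isCompact_tet, convex_tet, interior_tet⟩

lemma tri_subset {K : Set E3} (hK : Convex ℝ K) (c a b : E3) (h0 : c ∈ K) (h1 : c + a ∈ K)
    (h2 : c + b ∈ K) : tri c a b ⊆ K := by
  rintro p ⟨s, t, hs, ht, hst, rfl⟩
  have := hK.sum_mem (t := Finset.univ) (w := ![1 - s - t, s, t]) (z := ![c, c + a, c + b])
    (by intro i _; fin_cases i <;> simp <;> linarith)
    (by simp [Fin.sum_univ_three]; ring)
    (by intro i _; fin_cases i <;> simpa)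
  convert this using 1
  simp only [Fin.sum_univ_three, Matrix.cons_val_zero, Matrix.cons_val_one, Matrix.cons_val_two,
    Matrix.head_cons, Matrix.tail_cons]
  module

lemma volume_proj_tet_lt (u : E3) :
    volume ((perpS u).orthogonalProjectionOnto '' tet) < ⊤ :=
  (isCompact_tet.image (by fun_prop)).measure_lt_top

lemma le_projArea_tet (u : E3) (hu : ‖u‖ = 1) (c a b₁ b₂ : E3) (h0 : c ∈ tet) (h1 : c + a ∈ tet)
    (h2 : c + b₁ ∈ tet) (h3 : c + b₂ ∈ tet) :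
    |det3 a b₁ u - det3 a b₂ u| / 2 ≤ projArea tet u := by
  have := volume_two_tri u hu tet c a b₁ b₂ (tri_subset convex_tet c a b₁ h0 h1 h2)
    (tri_subset convex_tet c a b₂ h0 h1 h3)
  unfold projArea area
  rw [planar_proj u hu]
  exact (ENNReal.ofReal_le_iff_le_toReal (volume_proj_tet_lt u).ne).mp this

lemma proj_ge_2 (u : E3) (hu : ‖u‖ = 1) : |u 2| ≤ projArea tet u := by
  have := le_projArea_tet u hu !₂[-1 / 2, -1 / 2, 0] !₂[1, 1, 0] !₂[0, 1, 1] !₂[1, 0, 1]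
    (by simp [tet]; norm_num) (by simp [tet]; norm_num) (by simp [tet]; norm_num)
    (by simp [tet]; norm_num)
  have e : det3 !₂[1, 1, 0] !₂[0, 1, 1] u - det3 !₂[1, 1, 0] !₂[1, 0, 1] u = 2 * u 2 := by
    simp [det3]; ring
  rw [e, abs_mul] at this
  norm_num at this
  linarith

lemma proj_ge_0 (u : E3) (hu : ‖u‖ = 1) : |u 0| ≤ projArea tet u := by
  have := le_projArea_tet u hu !₂[-1 / 2, -1 / 2, 0] !₂[0, 1, 1] !₂[1, 1, 0] !₂[1, 0, 1]
    (by simp [tet]; norm_num) (by simp [tet]; norm_num) (by simp [tet]; norm_num)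
    (by simp [tet]; norm_num)
  have e : det3 !₂[0, 1, 1] !₂[1, 1, 0] u - det3 !₂[0, 1, 1] !₂[1, 0, 1] u = (-2) * u 0 := by
    simp [det3]; ring
  rw [e, abs_mul] at this
  norm_num at this
  linarith

lemma proj_ge_1 (u : E3) (hu : ‖u‖ = 1) : |u 1| ≤ projArea tet u := by
  have := le_projArea_tet u hu !₂[-1 / 2, -1 / 2, 0] !₂[1, 0, 1] !₂[1, 1, 0] !₂[0, 1, 1]
    (by simp [tet]; norm_num) (by simp [tet]; norm_num) (by simp [tet]; norm_num)
    (by simp [tet]; norm_num)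
  have e : det3 !₂[1, 0, 1] !₂[1, 1, 0] u - det3 !₂[1, 0, 1] !₂[0, 1, 1] u = 2 * u 1 := by
    simp [det3]; ring
  rw [e, abs_mul] at this
  norm_num at this
  linarith

lemma proj_ge_f1 (u : E3) (hu : ‖u‖ = 1) : |u 0 - u 1 + u 2| / 2 ≤ projArea tet u := by
  have := le_projArea_tet u hu !₂[-1 / 2, -1 / 2, 0] !₂[1, 1, 0] !₂[0, 1, 1] 0
    (by simp [tet]; norm_num) (by simp [tet]; norm_num) (by simp [tet]; norm_num)
    (by simp [tet]; norm_num)
  have e : det3 !₂[1, 1, 0] !₂[0, 1, 1] u - det3 !₂[1, 1, 0] 0 u = u 0 - u 1 + u 2 := by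
    simp [det3]; ring
  rwa [e] at this

lemma proj_ge_f2 (u : E3) (hu : ‖u‖ = 1) : |u 0 - u 1 - u 2| / 2 ≤ projArea tet u := by
  have := le_projArea_tet u hu !₂[-1 / 2, -1 / 2, 0] !₂[1, 1, 0] !₂[1, 0, 1] 0
    (by simp [tet]; norm_num) (by simp [tet]; norm_num) (by simp [tet]; norm_num)
    (by simp [tet]; norm_num)
  have e : det3 !₂[1, 1, 0] !₂[1, 0, 1] u - det3 !₂[1, 1, 0] 0 u = u 0 - u 1 - u 2 := by
    simp [det3]; ring
  rwa [e] at this

lemma proj_ge_f3 (u : E3) (hu : ‖u‖ = 1) : |u 0 + u 1 - u 2| / 2 ≤ projArea tet u := by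
  have := le_projArea_tet u hu !₂[-1 / 2, -1 / 2, 0] !₂[0, 1, 1] !₂[1, 0, 1] 0
    (by simp [tet]; norm_num) (by simp [tet]; norm_num) (by simp [tet]; norm_num)
    (by simp [tet]; norm_num)
  have e : det3 !₂[0, 1, 1] !₂[1, 0, 1] u - det3 !₂[0, 1, 1] 0 u = u 0 + u 1 - u 2 := by
    simp [det3]; ring
  rwa [e] at this

lemma proj_ge_f4 (u : E3) (hu : ‖u‖ = 1) : |u 0 + u 1 + u 2| / 2 ≤ projArea tet u := by
  have := le_projArea_tet u hu !₂[1 / 2, 1 / 2, 0] !₂[-1, 0, 1] !₂[0, -1, 1] 0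
    (by simp [tet]; norm_num) (by simp [tet]; norm_num) (by simp [tet]; norm_num)
    (by simp [tet]; norm_num)
  have e : det3 !₂[-1, 0, 1] !₂[0, -1, 1] u - det3 !₂[-1, 0, 1] 0 u = u 0 + u 1 + u 2 := by
    simp [det3]; ring
  rwa [e] at this

lemma projArea_tet_sq (u : E3) (hu : ‖u‖ = 1) : 1 / 2 ≤ projArea tet u ^ 2 := by
  have hn := normsq_E3 u hu
  have h0 := proj_ge_0 u hu
  have h1 := proj_ge_1 u hu
  have h2 := proj_ge_2 u hu
  have f1 := proj_ge_f1 u hu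
  have f2 := proj_ge_f2 u hu
  have f3 := proj_ge_f3 u hu
  have f4 := proj_ge_f4 u hu
  set M := projArea tet u
  have hl : |u 0| + |u 1| + |u 2| ≤ 2 * M := by
    have g1 := le_abs_self (u 0 - u 1 + u 2)
    have g1' := neg_abs_le (u 0 - u 1 + u 2)
    have g2 := le_abs_self (u 0 - u 1 - u 2)
    have g2' := neg_abs_le (u 0 - u 1 - u 2)
    have g3 := le_abs_self (u 0 + u 1 - u 2)
    have g3' := neg_abs_le (u 0 + u 1 - u 2)
    have g4 := le_abs_self (u 0 + u 1 + u 2)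
    have g4' := neg_abs_le (u 0 + u 1 + u 2)
    rcases abs_cases (u 0) with ⟨e0, _⟩ | ⟨e0, _⟩ <;>
    rcases abs_cases (u 1) with ⟨e1, _⟩ | ⟨e1, _⟩ <;>
    rcases abs_cases (u 2) with ⟨e2, _⟩ | ⟨e2, _⟩ <;> linarith
  have s0 : u 0 ^ 2 ≤ |u 0| * M := by
    rw [← sq_abs, sq]; exact mul_le_mul_of_nonneg_left h0 (abs_nonneg _)
  have s1 : u 1 ^ 2 ≤ |u 1| * M := by
    rw [← sq_abs, sq]; exact mul_le_mul_of_nonneg_left h1 (abs_nonneg _)
  have s2 : u 2 ^ 2 ≤ |u 2| * M := by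
    rw [← sq_abs, sq]; exact mul_le_mul_of_nonneg_left h2 (abs_nonneg _)
  have hM : 0 ≤ M := le_trans (abs_nonneg _) h0
  nlinarith [mul_le_mul_of_nonneg_right hl hM]

lemma projArea_tet_ge (u : E3) (hu : ‖u‖ = 1) : √(1 / 2) ≤ projArea tet u := by
  have hM : 0 ≤ projArea tet u := le_trans (abs_nonneg _) (proj_ge_0 u hu)
  rw [Real.sqrt_le_left hM]
  exact projArea_tet_sq u hu

lemma Amin_tet_ge : √(1 / 2) ≤ Amin tet := by
  unfold Amin
  refine le_csInf ⟨projArea tet !₂[1, 0, 0], !₂[1, 0, 0], ?_, rfl⟩ ?_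
  · simp [EuclideanSpace.norm_eq, Fin.sum_univ_three]
  · rintro _ ⟨u, hu, rfl⟩
    exact projArea_tet_ge u hu

end Vale.Agent.P243
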